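import Vale.Agent.P073.St
import Mathlib.Geometry.Manifold.PartitionOfUnity
import Mathlib.Topology.MetricSpace.HausdorffDistance

/-!
# P073, block MM: a partition for the smoothing row
-/

namespace Vale.Agent.P073.MM.H339

open Set Filter Topology Metric Vale.Agent.P073.St
open scoped ContDiff Manifold

variable {U : Set V}

theorem chi_exists (U : Set V) (n : ℕ) :
    ∃ χ : V → ℝ, ContDiff ℝ ∞ χ ∧ (∀ x, 0 ≤ χ x ∧ χ x ≤ 1) ∧
      (∀ x, (n + 2) * infDist x Uᶜ ≤ 1 → χ x = 0) ∧
      (∀ x, 1 ≤ (n + 1) * infDist x Uᶜ → χ x = 1) := by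
  have hc : Continuous fun x : V => infDist x Uᶜ := continuous_infDist_pt _
  have hs : IsClosed {x : V | (n + 2) * infDist x Uᶜ ≤ 1} :=
    isClosed_le (continuous_const.mul hc) continuous_const
  have ht : IsClosed {x : V | 1 ≤ (n + 1) * infDist x Uᶜ} :=
    isClosed_le continuous_const (continuous_const.mul hc)
  have hd : Disjoint {x : V | (n + 2) * infDist x Uᶜ ≤ 1} {x : V | 1 ≤ (n + 1) * infDist x Uᶜ} := by
    rw [Set.disjoint_left]
    intro x h1 h2
    simp only [mem_ofPred_eq] at h1 h2
    have h3 : 0 ≤ infDist x Uᶜ := infDist_nonneg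
    nlinarith
  obtain ⟨f, hf0, hf1, hf⟩ := exists_contMDiffMap_zero_one_of_isClosed 𝓘(ℝ, V) hs ht hd (n := (⊤ : ℕ∞))
  exact ⟨f, f.contMDiff.contDiff, fun x => hf x, fun x hx => hf0 hx, fun x hx => hf1 hx⟩

theorem part (U : Set V) (hU : IsOpen U) (hb : Bornology.IsBounded U) :
    ∃ (c : ℕ → V → ℝ) (W : ℕ → Set V), (∀ n, ContDiff ℝ ∞ (c n)) ∧
      (∀ n, HasCompactSupport (c n)) ∧ (∀ n x, 0 ≤ c n x) ∧ (∀ n, IsOpen (W n)) ∧
      (∀ n, tsupport (c n) ⊆ W n) ∧ (∀ n, IsCompact (closure (W n)) ∧ closure (W n) ⊆ U) ∧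
      ∀ x ∈ U, ∃ N : ℕ, ∃ t ∈ 𝓝 x, ∀ y ∈ t, (∀ n, N ≤ n → y ∉ W n) ∧
        ∑ n ∈ Finset.range N, c n y = 1 := by
  have hdc : Continuous fun x : V => infDist x Uᶜ := continuous_infDist_pt _
  have hne : (Uᶜ : Set V).Nonempty := by
    by_contra h
    rw [Set.not_nonempty_iff_eq_empty, Set.compl_empty_iff] at h
    rw [h] at hb
    exact NoncompactSpace.noncompact_univ (X := V)
      (Metric.isCompact_of_isClosed_isBounded isClosed_univ hb)
  have hmem : ∀ x, 0 < infDist x Uᶜ → x ∈ U := by
    intro x hx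
    by_contra h
    have : infDist x Uᶜ = 0 := infDist_zero_of_mem h
    rw [this] at hx
    exact lt_irrefl _ hx
  have hpos : ∀ x ∈ U, 0 < infDist x Uᶜ := by
    intro x hx
    exact (hU.isClosed_compl.notMem_iff_infDist_pos hne).1 (fun h => h hx)
  choose χ hχ h01 h0 h1 using chi_exists U
  -- the functions
  let c : ℕ → V → ℝ := fun n => match n with
    | 0 => χ 0
    | (m + 1) => fun x => χ (m + 1) x - χ m x
  have hsum : ∀ (N : ℕ) (y : V), ∑ n ∈ Finset.range (N + 1), c n y = χ N y := by
    intro N y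
    induction N with
    | zero => simp [c]
    | succ N ih =>
      rw [Finset.sum_range_succ, ih]
      show χ N y + (χ (N + 1) y - χ N y) = _
      ring
  have hcs : ∀ n x, c n x ≠ 0 → 1 ≤ (n + 2) * infDist x Uᶜ ∧ n * infDist x Uᶜ ≤ 1 := by
    intro n x hx
    have h3 : 0 ≤ infDist x Uᶜ := infDist_nonneg
    cases n with
    | zero =>
      refine ⟨?_, by simp⟩
      by_contra h
      apply hx
      show χ 0 x = 0
      exact h0 0 x (not_le.1 h).le
    | succ m =>
      have e : c (m + 1) x = χ (m + 1) x - χ m x := rfl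
      constructor
      · by_contra h
        apply hx
        have h4 := (not_le.1 h).le
        push_cast at h4
        have h5 : χ (m + 1) x = 0 := h0 (m + 1) x (by push_cast; linarith)
        have h6 : χ m x = 0 := h0 m x (by nlinarith)
        rw [e, h5, h6, sub_zero]
      · by_contra h
        apply hx
        have h4 := (not_le.1 h).le
        push_cast at h4
        have h5 : χ (m + 1) x = 1 := h1 (m + 1) x (by push_cast; nlinarith)
        have h6 : χ m x = 1 := h1 m x (by linarith)
        rw [e, h5, h6, sub_self]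
  have htc : ∀ n, tsupport (c n) ⊆
      {x | 1 ≤ (n + 2) * infDist x Uᶜ ∧ n * infDist x Uᶜ ≤ 1} := by
    intro n
    refine closure_minimal (fun x hx => hcs n x hx) ?_
    exact (isClosed_le continuous_const (continuous_const.mul hdc)).inter
      (isClosed_le (continuous_const.mul hdc) continuous_const)
  let W : ℕ → Set V := fun n => {x | 1 < (n + 3) * infDist x Uᶜ ∧ n * infDist x Uᶜ < 2}
  have hcW : ∀ n, closure (W n) ⊆ {x | 1 ≤ (n + 3) * infDist x Uᶜ} := fun n =>
    closure_minimal (fun x hx => hx.1.le) (isClosed_le continuous_const (continuous_const.mul hdc))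
  have hWU : ∀ n, closure (W n) ⊆ U := by
    intro n x hx
    have h2 := hcW n hx
    simp only [mem_ofPred_eq] at h2
    refine hmem x ?_
    by_contra h
    have h3 : infDist x Uᶜ ≤ 0 := not_lt.1 h
    have h4 : (0 : ℝ) ≤ (n : ℝ) + 3 := by positivity
    nlinarith
  have htW : ∀ n, tsupport (c n) ⊆ W n := by
    intro n x hx
    obtain ⟨h2, h3⟩ := htc n hx
    have h4 : 0 ≤ infDist x Uᶜ := infDist_nonneg
    have h5 : 0 < infDist x Uᶜ := by
      rcases h4.eq_or_lt with h | h
      · rw [← h] at h2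
        norm_num at h2
      · exact h
    exact ⟨by linarith, by linarith⟩
  refine ⟨c, W, ?_, ?_, ?_, ?_, htW, ?_, ?_⟩
  · intro n
    cases n with
    | zero => exact hχ 0
    | succ m => exact (hχ (m + 1)).sub (hχ m)
  · intro n
    refine HasCompactSupport.of_support_subset_isCompact
      (Metric.isCompact_of_isClosed_isBounded (isClosed_closure (s := W n))
        (hb.subset (hWU n))) ?_
    exact (subset_closure.trans (htW n)).trans subset_closure
  · intro n x
    cases n with
    | zero => exact (h01 0 x).1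
    | succ m =>
      show 0 ≤ χ (m + 1) x - χ m x
      have h3 : 0 ≤ infDist x Uᶜ := infDist_nonneg
      by_cases h : (m + 2) * infDist x Uᶜ ≤ 1
      · rw [h0 m x h, sub_zero]
        exact (h01 _ x).1
      · have h5 : χ (m + 1) x = 1 := h1 (m + 1) x (by push_cast; nlinarith)
        rw [h5]
        linarith [(h01 m x).2]
  · intro n
    exact (isOpen_lt continuous_const (continuous_const.mul hdc)).inter
      (isOpen_lt (continuous_const.mul hdc) continuous_const)
  · intro n
    exact ⟨Metric.isCompact_of_isClosed_isBounded isClosed_closure (hb.subset (hWU n)), hWU n⟩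
  · intro x hx
    have hx0 := hpos x hx
    obtain ⟨N, hN⟩ := exists_nat_gt (4 / infDist x Uᶜ)
    rw [div_lt_iff₀ hx0] at hN
    refine ⟨N + 1, {y | infDist x Uᶜ / 2 < infDist y Uᶜ},
      (isOpen_lt continuous_const hdc).mem_nhds (by simp only [mem_ofPred_eq]; linarith), ?_⟩
    intro y hy
    simp only [mem_ofPred_eq] at hy
    have hN0 : (0 : ℝ) ≤ N := Nat.cast_nonneg N
    constructor
    · intro n hn h
      have h2 := h.2
      have h3 : (N : ℝ) + 1 ≤ n := by exact_mod_cast hn
      have h4 : 0 < infDist y Uᶜ := by linarith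
      nlinarith
    · rw [hsum]
      refine h1 N y ?_
      nlinarith

end Vale.Agent.P073.MM.H339
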